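import Vale.Agent.Lib.P154B.Fast3

namespace Vale.Agent.Lib.P154P.Tab.BT

open Vale.Agent.Lib.P154B

def mkR (t L : ℕ) (hs : List ℕ) : Rec := ⟨t, L, hs⟩

def qsD : List ℕ := [1170033829,4765547789,9705038075,13176206693,13416672466,10929221390,7419119787,4316867841,2197825339,994638066,405116084,150003436,50913665,15951642,4640787,1260127,320780,76854,17389]

end Vale.Agent.Lib.P154P.Tab.BT
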