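import Vale.Agent.Lib.P154P.Tab.BT.P1
import Vale.Agent.Lib.P154P.Tab.BT.St

set_option linter.defProp false

namespace Vale.Agent.Lib.P154P.Tab.BT

open Vale.Agent.Lib.P154B

def run_64 : Nat.beq (iterH lp1 lp1_gl lp1_ge rows1 6 s_58) s_64 = true := by decide +kernel

end Vale.Agent.Lib.P154P.Tab.BT
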